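import Vale.Agent.P088.R2.H960.W.Weyl2

/-!
# P088, stage 3: the density form of `T`, partitions and gluing (G0)

`T(a, b) = ∫ θ (sqd + sta)`, `sqd = ∑ (P_j a_k)²`, `sta = 8 TH(X a, X b) + qs` (the star density).
For a partition `∑ χ_k² = 1` no commutator appears: `T = ∑_k ∫ θ χ_k² (sqd + sta)`.
-/

open MeasureTheory Set Filter
open scoped ContDiff Topology

noncomputable section

namespace Vale.Agent.P088.R2.H551.E

open Vale.Agent.P088.R2.H961.GW Vale.Agent.P088.R2.H960.W Vale.Agent.P088.R2.H644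

variable {E ι κ : Type*} [NormedAddCommGroup E] [NormedSpace ℝ E] [Fintype ι] [Fintype κ]

/-- The density of the squares. -/
def sqd (σ : Sl E ι) (τ : Sl E κ) (v₁ v₂ W a b : E → ℝ) (z : E) : ℝ :=
  σ.P v₁ W a z ^ 2 + τ.P v₂ W b z ^ 2 + τ.P v₂ W a z ^ 2 + σ.P v₁ W b z ^ 2

/-- The star density. -/
def sta (σ : Sl E ι) (τ : Sl E κ) (v₁ v₂ W a b : E → ℝ) (z : E) : ℝ :=
  8 * Ch.TH σ τ W z (Ch.XX σ W a z) (Ch.XX τ W b z) + qs σ τ v₁ v₂ W a b z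

/-- The full density. -/
def dn (σ : Sl E ι) (τ : Sl E κ) (v₁ v₂ W a b : E → ℝ) (z : E) : ℝ :=
  sqd σ τ v₁ v₂ W a b z + sta σ τ v₁ v₂ W a b z

section pw

variable {σ : Sl E ι} {τ : Sl E κ} {U : Set E} {θ : E → ℝ} {v₁ v₂ W a b : E → ℝ}

omit [Fintype κ] in
theorem sqd_nonneg [Fintype κ] (σ : Sl E ι) (τ : Sl E κ) (v₁ v₂ W a b : E → ℝ) (z : E) :
    0 ≤ sqd σ τ v₁ v₂ W a b z := by unfold sqd; positivity

theorem tsqd (ok : σ.Ok U θ) (ot : τ.Ok U θ) (hv₁ : Sm U v₁) (hv₂ : Sm U v₂) (hW : Sm U W)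
    (ha : Te U a) (hb : Te U b) : Te U (sqd σ τ v₁ v₂ W a b) := by
  have hU := ok.op
  exact (((ok.tP hv₁ hW ha).sq hU).add hU ((ot.tP hv₂ hW hb).sq hU)).add hU
    ((ot.tP hv₂ hW ha).sq hU) |>.add hU ((ok.tP hv₁ hW hb).sq hU)

theorem tTH (ok : σ.Ok U θ) (ot : τ.Ok U θ) (hW : Sm U W) (ha : Te U a) (hb : Te U b) :
    Te U fun z => Ch.TH σ τ W z (Ch.XX σ W a z) (Ch.XX τ W b z) := by
  have h := Ch.tHH ok ot hW ha hb
  refine te_of ok.op (K := tsupport a ∪ tsupport b) (ha.cpt.union hb.cpt)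
    (union_subset ha.2.2 hb.2.2) ?_ ?_
  · exact h.sm.congr fun z hz => Ch.TH_XX ok ot hW ha.sm hb.sm hz
  · intro z hz
    have h1 : ∀ i, Ch.XX σ W a z i = 0 := fun i => by
      have h3 : fderiv ℝ a z = 0 := by
        by_contra hc
        exact hz (Or.inl (support_fderiv_subset ℝ hc))
      unfold Ch.XX Sl.D
      rw [ha.zero fun h => hz (Or.inl h), h3]; simp
    have h2 : ∀ i, Ch.XX τ W b z i = 0 := fun i => by
      have h3 : fderiv ℝ b z = 0 := by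
        by_contra hc
        exact hz (Or.inr (support_fderiv_subset ℝ hc))
      unfold Ch.XX Sl.D
      rw [hb.zero fun h => hz (Or.inr h), h3]; simp
    unfold Ch.TH
    simp [h1, h2]

theorem tsta (ok : σ.Ok U θ) (ot : τ.Ok U θ) (hv₁ : Sm U v₁) (hv₂ : Sm U v₂) (hW : Sm U W)
    (ha : Te U a) (hb : Te U b) : Te U (sta σ τ v₁ v₂ W a b) :=
  ((tTH ok ot hW ha hb).cmul ok.op 8).add ok.op (tqs ok ot hv₁ hv₂ hW ha hb)

theorem tdn (ok : σ.Ok U θ) (ot : τ.Ok U θ) (hv₁ : Sm U v₁) (hv₂ : Sm U v₂) (hW : Sm U W)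
    (ha : Te U a) (hb : Te U b) : Te U (dn σ τ v₁ v₂ W a b) :=
  (tsqd ok ot hv₁ hv₂ hW ha hb).add ok.op (tsta ok ot hv₁ hv₂ hW ha hb)

end pw

variable [MeasureSpace E] [FiniteDimensional ℝ E] [BorelSpace E]
  [(volume : Measure E).IsAddHaarMeasure]

section integral

variable {σ : Sl E ι} {τ : Sl E κ} {U : Set E} {θ : E → ℝ} {v v₁ v₂ W f g h a b : E → ℝ}

/-- **The density form.** -/
theorem T_dn (ok : σ.Ok U θ) (ot : τ.Ok U θ) (c : Cm σ τ U) (hv₁ : Sm U v₁) (hv₂ : Sm U v₂)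
    (h₁ : ∀ z ∈ U, ∀ k, τ.D k v₁ z = 0) (h₂ : ∀ z ∈ U, ∀ i, σ.D i v₂ z = 0) (hW : Sm U W)
    (ha : Te U a) (hb : Te U b) :
    TT σ τ U θ v₁ v₂ W a b = In U θ (dn σ τ v₁ v₂ W a b) := by
  have hU := ok.op
  have e := Ch.tstar ok ot c hv₁ hv₂ h₁ h₂ hW ha hb
  have q := In_qs ok ot hv₁ hv₂ hW ha hb
  have e1 : In U θ (dn σ τ v₁ v₂ W a b) = In U θ (sqd σ τ v₁ v₂ W a b) +
      (8 * In U θ (fun z => Ch.TH σ τ W z (Ch.XX σ W a z) (Ch.XX τ W b z)) +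
        In U θ (qs σ τ v₁ v₂ W a b)) := by
    unfold dn
    rw [In_add hU ok.ts (tsqd ok ot hv₁ hv₂ hW ha hb) (tsta ok ot hv₁ hv₂ hW ha hb)]
    congr 1
    unfold sta
    rw [In_add hU ok.ts ((tTH ok ot hW ha hb).cmul hU 8) (tqs ok ot hv₁ hv₂ hW ha hb), In_cmul]
  have e2 : In U θ (sqd σ τ v₁ v₂ W a b) = In U θ (fun z => σ.P v₁ W a z ^ 2) +
      In U θ (fun z => τ.P v₂ W b z ^ 2) + In U θ (fun z => τ.P v₂ W a z ^ 2) +
      In U θ (fun z => σ.P v₁ W b z ^ 2) := by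
    unfold sqd
    rw [In_add hU ok.ts ((((ok.tP hv₁ hW ha).sq hU).add hU ((ot.tP hv₂ hW hb).sq hU)).add hU
        ((ot.tP hv₂ hW ha).sq hU)) ((ok.tP hv₁ hW hb).sq hU),
      In_add hU ok.ts (((ok.tP hv₁ hW ha).sq hU).add hU ((ot.tP hv₂ hW hb).sq hU))
        ((ot.tP hv₂ hW ha).sq hU),
      In_add hU ok.ts ((ok.tP hv₁ hW ha).sq hU) ((ot.tP hv₂ hW hb).sq hU)]
  rw [e1, e2, e]
  linarith

/-- Inserting a partition in an integral. -/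
theorem In_part {α : Type*} (hU : IsOpen U) (hθ : Sm U θ) (S : Finset α) {χ : α → E → ℝ}
    (hχ : ∀ k ∈ S, Sm U (χ k)) (h1 : ∀ z ∈ U, ∑ k ∈ S, χ k z ^ 2 = 1) (hf : Te U f) :
    In U θ f = ∑ k ∈ S, In U θ (fun z => χ k z ^ 2 * f z) := by
  rw [← In_sum hU hθ S fun k hk => hf.mul_left hU ((hχ k hk).pow 2)]
  refine In_congr hU fun z hz => ?_
  rw [← Finset.sum_mul, h1 z hz, one_mul]

/-- **(G0)** A partition `∑ χ_k² = 1` is inserted in the squares and in the star density. -/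
theorem T_part (ok : σ.Ok U θ) (ot : τ.Ok U θ) (c : Cm σ τ U) (hv₁ : Sm U v₁) (hv₂ : Sm U v₂)
    (h₁ : ∀ z ∈ U, ∀ k, τ.D k v₁ z = 0) (h₂ : ∀ z ∈ U, ∀ i, σ.D i v₂ z = 0) (hW : Sm U W)
    (ha : Te U a) (hb : Te U b) {α : Type*} (S : Finset α) {χ : α → E → ℝ}
    (hχ : ∀ k ∈ S, Sm U (χ k)) (h1 : ∀ z ∈ U, ∑ k ∈ S, χ k z ^ 2 = 1) :
    TT σ τ U θ v₁ v₂ W a b = ∑ k ∈ S, In U θ (fun z => χ k z ^ 2 * dn σ τ v₁ v₂ W a b z) := by
  rw [T_dn ok ot c hv₁ hv₂ h₁ h₂ hW ha hb]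
  exact In_part ok.op ok.ts S hχ h1 (tdn ok ot hv₁ hv₂ hW ha hb)

/-- **Gluing.** Every zone `k` bounds its part of `T` below by `∫ θ (mg k) - ∫ θ (co k)`; if
pointwise `m + ∑ co k ≤ ∑ mg k`, then `∫ θ m ≤ T`. The densities may depend on `a`, `b`. -/
theorem T_glue (ok : σ.Ok U θ) (ot : τ.Ok U θ) (c : Cm σ τ U) (hv₁ : Sm U v₁) (hv₂ : Sm U v₂)
    (h₁ : ∀ z ∈ U, ∀ k, τ.D k v₁ z = 0) (h₂ : ∀ z ∈ U, ∀ i, σ.D i v₂ z = 0) (hW : Sm U W)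
    (ha : Te U a) (hb : Te U b) {α : Type*} (S : Finset α) {χ : α → E → ℝ}
    (hχ : ∀ k ∈ S, Sm U (χ k)) (h1 : ∀ z ∈ U, ∑ k ∈ S, χ k z ^ 2 = 1)
    {m : E → ℝ} {mg co : α → E → ℝ}
    (im : IntegrableOn (fun z => θ z * m z) U)
    (ig : ∀ k ∈ S, IntegrableOn (fun z => θ z * mg k z) U)
    (ic : ∀ k ∈ S, IntegrableOn (fun z => θ z * co k z) U)
    (zone : ∀ k ∈ S, In U θ (mg k) - In U θ (co k) ≤
      In U θ (fun z => χ k z ^ 2 * dn σ τ v₁ v₂ W a b z))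
    (pay : ∀ z ∈ U, m z + ∑ k ∈ S, co k z ≤ ∑ k ∈ S, mg k z) :
    In U θ m ≤ TT σ τ U θ v₁ v₂ W a b := by
  rw [T_part ok ot c hv₁ hv₂ h₁ h₂ hW ha hb S hχ h1]
  refine le_trans ?_ (Finset.sum_le_sum zone)
  rw [Finset.sum_sub_distrib]
  have e1 : ∑ k ∈ S, In U θ (mg k) = ∫ z in U, ∑ k ∈ S, θ z * mg k z := by
    unfold In
    rw [integral_finsetSum S fun k hk => ig k hk]
  have e2 : ∑ k ∈ S, In U θ (co k) = ∫ z in U, ∑ k ∈ S, θ z * co k z := by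
    unfold In
    rw [integral_finsetSum S fun k hk => ic k hk]
  rw [e1, e2, le_sub_iff_add_le]
  unfold In
  rw [← integral_add im (integrable_finsetSum S fun k hk => ic k hk)]
  refine setIntegral_mono_on (im.add (integrable_finsetSum S fun k hk => ic k hk))
    (integrable_finsetSum S fun k hk => ig k hk) ok.op.measurableSet fun z hz => ?_
  rw [← Finset.mul_sum, ← Finset.mul_sum, ← mul_add]
  exact mul_le_mul_of_nonneg_left (pay z hz) (ok.tp z hz).le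

end integral

end Vale.Agent.P088.R2.H551.E
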