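import Vale.Agent.P088.R2.H551.E.Dens

/-!
# P088, stage 3: the common form of the zone inequalities

`Q8`: eight coefficient functions; `dens` is the quadratic density
`κ sqd + ζ₁ |X a|² + ζ₂ |X b|² + ζy |X a - X b|² + w₁ a² + w₂ b² + wb (a + b)² + wc (a - b)²`.
`Zone χ mg co`: `∫ θ mg(a, b) - ∫ θ co(a, b) ≤ ∫ θ χ² (sqd + sta)` for all test functions `a, b`.
`glue`: a partition, zone inequalities and `m + ∑ co ≤ ∑ mg` (coefficientwise) give `∫ θ m ≤ T`.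
-/

open MeasureTheory Set Filter
open scoped ContDiff Topology

noncomputable section

namespace Vale.Agent.P088.R2.H551.E

open Vale.Agent.P088.R2.H961.GW Vale.Agent.P088.R2.H960.W Vale.Agent.P088.R2.H644

variable {E ι : Type*} [NormedAddCommGroup E] [NormedSpace ℝ E] [Fintype ι]

/-- Eight coefficient functions. -/
@[ext] structure Q8 (E : Type*) where
  /-- the squares `(P_j a_k)²` -/
  κ : E → ℝ
  /-- `|X a|²` -/
  ζ₁ : E → ℝ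
  /-- `|X b|²` -/
  ζ₂ : E → ℝ
  /-- `|X a - X b|²` -/
  ζy : E → ℝ
  /-- `a²` -/
  w₁ : E → ℝ
  /-- `b²` -/
  w₂ : E → ℝ
  /-- `(a + b)²` -/
  wb : E → ℝ
  /-- `(a - b)²` -/
  wc : E → ℝ

/-- `|X a|²`, `X a = a D W - D a` (the starred derivatives). -/
def nX (σ : Sl E ι) (W a : E → ℝ) (z : E) : ℝ := ∑ i, Ch.XX σ W a z i ^ 2

/-- `|X a - X b|²` (both slots have the same index type). -/
def nY (σ τ : Sl E ι) (W a b : E → ℝ) (z : E) : ℝ :=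
  ∑ i, (Ch.XX σ W a z i - Ch.XX τ W b z i) ^ 2

namespace Q8

/-- The density. -/
def dens (q : Q8 E) (σ τ : Sl E ι) (v₁ v₂ W a b : E → ℝ) (z : E) : ℝ :=
  q.κ z * sqd σ τ v₁ v₂ W a b z + q.ζ₁ z * nX σ W a z + q.ζ₂ z * nX τ W b z +
    q.ζy z * nY σ τ W a b z + q.w₁ z * a z ^ 2 + q.w₂ z * b z ^ 2 +
    q.wb z * (a z + b z) ^ 2 + q.wc z * (a z - b z) ^ 2

instance : Zero (Q8 E) := ⟨⟨0, 0, 0, 0, 0, 0, 0, 0⟩⟩

instance : Add (Q8 E) := ⟨fun p q => ⟨p.κ + q.κ, p.ζ₁ + q.ζ₁, p.ζ₂ + q.ζ₂, p.ζy + q.ζy,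
  p.w₁ + q.w₁, p.w₂ + q.w₂, p.wb + q.wb, p.wc + q.wc⟩⟩

/-- Multiplication of all coefficients by a function. -/
def sm (f : E → ℝ) (q : Q8 E) : Q8 E := ⟨f * q.κ, f * q.ζ₁, f * q.ζ₂, f * q.ζy, f * q.w₁,
  f * q.w₂, f * q.wb, f * q.wc⟩

/-- Continuous coefficients. -/
structure Ct (q : Q8 E) (U : Set E) : Prop where
  κ : ContinuousOn q.κ U
  ζ₁ : ContinuousOn q.ζ₁ U
  ζ₂ : ContinuousOn q.ζ₂ U
  ζy : ContinuousOn q.ζy U
  w₁ : ContinuousOn q.w₁ U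
  w₂ : ContinuousOn q.w₂ U
  wb : ContinuousOn q.wb U
  wc : ContinuousOn q.wc U

/-- Coefficientwise order at a point. -/
structure Le (p q : Q8 E) (z : E) : Prop where
  κ : p.κ z ≤ q.κ z
  ζ₁ : p.ζ₁ z ≤ q.ζ₁ z
  ζ₂ : p.ζ₂ z ≤ q.ζ₂ z
  ζy : p.ζy z ≤ q.ζy z
  w₁ : p.w₁ z ≤ q.w₁ z
  w₂ : p.w₂ z ≤ q.w₂ z
  wb : p.wb z ≤ q.wb z
  wc : p.wc z ≤ q.wc z

variable {p q : Q8 E} {σ τ : Sl E ι} {U : Set E} {θ v₁ v₂ W a b : E → ℝ} {z : E}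

@[simp] theorem dens_zero : (0 : Q8 E).dens σ τ v₁ v₂ W a b z = 0 := by
  have h : (0 : Q8 E) = ⟨0, 0, 0, 0, 0, 0, 0, 0⟩ := rfl
  rw [h]
  unfold dens
  simp

theorem add_def (p q : Q8 E) : p + q = ⟨p.κ + q.κ, p.ζ₁ + q.ζ₁, p.ζ₂ + q.ζ₂, p.ζy + q.ζy,
  p.w₁ + q.w₁, p.w₂ + q.w₂, p.wb + q.wb, p.wc + q.wc⟩ := rfl

theorem dens_add : (p + q).dens σ τ v₁ v₂ W a b z =
    p.dens σ τ v₁ v₂ W a b z + q.dens σ τ v₁ v₂ W a b z := by
  rw [add_def]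
  unfold dens
  simp only [Pi.add_apply]
  ring

theorem dens_sm (f : E → ℝ) : (sm f q).dens σ τ v₁ v₂ W a b z =
    f z * q.dens σ τ v₁ v₂ W a b z := by
  unfold dens sm
  simp only [Pi.mul_apply]
  ring

theorem nX_nonneg (σ : Sl E ι) (W a : E → ℝ) (z : E) : 0 ≤ nX σ W a z :=
  Finset.sum_nonneg fun _ _ => sq_nonneg _

theorem nY_nonneg (σ τ : Sl E ι) (W a b : E → ℝ) (z : E) : 0 ≤ nY σ τ W a b z :=
  Finset.sum_nonneg fun _ _ => sq_nonneg _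

theorem dens_le (h : Le p q z) : p.dens σ τ v₁ v₂ W a b z ≤ q.dens σ τ v₁ v₂ W a b z := by
  unfold dens
  have := sqd_nonneg σ τ v₁ v₂ W a b z
  have := nX_nonneg σ W a z
  have := nX_nonneg τ W b z
  have := nY_nonneg σ τ W a b z
  gcongr
  · exact h.κ
  · exact h.ζ₁
  · exact h.ζ₂
  · exact h.ζy
  · exact h.w₁
  · exact h.w₂
  · exact h.wb
  · exact h.wc

end Q8

section int

variable {σ τ : Sl E ι} {U : Set E} {θ v₁ v₂ W a b f : E → ℝ}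

theorem tnX (ok : σ.Ok U θ) (hW : Sm U W) (ha : Te U a) : Te U (nX σ W a) :=
  Te.sum ok.op _ fun i _ => (tX ok hW ha i).sq ok.op

theorem tnY (ok : σ.Ok U θ) (ot : τ.Ok U θ) (hW : Sm U W) (ha : Te U a) (hb : Te U b) :
    Te U (nY σ τ W a b) :=
  Te.sum ok.op _ fun i _ => ((tX ok hW ha i).sub ok.op (tX ot hW hb i)).sq ok.op

variable [MeasureSpace E] [FiniteDimensional ℝ E] [BorelSpace E]
  [(volume : Measure E).IsAddHaarMeasure]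

/-- A continuous function times a test function is integrable. -/
theorem ct_int (hU : IsOpen U) (hθ : Sm U θ) {c : E → ℝ} (hc : ContinuousOn c U) (hf : Te U f) :
    IntegrableOn (fun z => θ z * (c z * f z)) U := by
  have hK := hf.cpt
  have h1 : IntegrableOn (fun z => θ z * (c z * f z)) (tsupport f) := by
    refine ContinuousOn.integrableOn_compact hK ?_
    exact (hθ.continuousOn.mono hf.2.2).mul ((hc.mono hf.2.2).mul hf.1.continuous.continuousOn)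
  have h2 : IntegrableOn (fun z => θ z * (c z * f z)) (U \ tsupport f) := by
    refine (integrableOn_congr_fun (g := fun z => θ z * (c z * f z)) (f := fun _ => (0 : ℝ)) ?_
      (hU.measurableSet.diff hK.isClosed.measurableSet)).1 integrableOn_zero
    intro z hz
    simp [hf.zero hz.2]
  have h3 := h1.union h2
  rwa [union_sdiff_cancel hf.2.2] at h3

theorem Q8.int_dens (ok : σ.Ok U θ) (ot : τ.Ok U θ) (hv₁ : Sm U v₁) (hv₂ : Sm U v₂)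
    (hW : Sm U W) (ha : Te U a) (hb : Te U b) {q : Q8 E} (hq : q.Ct U) :
    IntegrableOn (fun z => θ z * q.dens σ τ v₁ v₂ W a b z) U := by
  have hU := ok.op
  have e := (((((((ct_int hU ok.ts hq.κ (tsqd ok ot hv₁ hv₂ hW ha hb)).add
    (ct_int hU ok.ts hq.ζ₁ (tnX ok hW ha))).add
    (ct_int hU ok.ts hq.ζ₂ (tnX ot hW hb))).add
    (ct_int hU ok.ts hq.ζy (tnY ok ot hW ha hb))).add
    (ct_int hU ok.ts hq.w₁ (ha.sq hU))).add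
    (ct_int hU ok.ts hq.w₂ (hb.sq hU))).add
    (ct_int hU ok.ts hq.wb ((ha.add hU hb).sq hU))).add
    (ct_int hU ok.ts hq.wc ((ha.sub hU hb).sq hU))
  refine e.congr_fun (fun z _ => ?_) hU.measurableSet
  simp only [Pi.add_apply, Q8.dens]
  ring

/-- **The common form of a zone inequality.** -/
def Zone (σ τ : Sl E ι) (U : Set E) (θ v₁ v₂ W χ : E → ℝ) (mg co : Q8 E) : Prop :=
  ∀ a b : E → ℝ, Te U a → Te U b →
    In U θ (mg.dens σ τ v₁ v₂ W a b) - In U θ (co.dens σ τ v₁ v₂ W a b) ≤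
      In U θ fun z => χ z ^ 2 * dn σ τ v₁ v₂ W a b z

/-- **Gluing in the common form.** -/
theorem glue (ok : σ.Ok U θ) (ot : τ.Ok U θ) (c : Cm σ τ U) (hv₁ : Sm U v₁) (hv₂ : Sm U v₂)
    (h₁ : ∀ z ∈ U, ∀ k, τ.D k v₁ z = 0) (h₂ : ∀ z ∈ U, ∀ i, σ.D i v₂ z = 0) (hW : Sm U W)
    {α : Type*} (S : Finset α) {χ : α → E → ℝ} (hχ : ∀ k ∈ S, Sm U (χ k))
    (h1 : ∀ z ∈ U, ∑ k ∈ S, χ k z ^ 2 = 1) {m : Q8 E} {mg co : α → Q8 E} (cm : m.Ct U)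
    (cg : ∀ k ∈ S, (mg k).Ct U) (cc : ∀ k ∈ S, (co k).Ct U)
    (zone : ∀ k ∈ S, Zone σ τ U θ v₁ v₂ W (χ k) (mg k) (co k))
    (pay : ∀ z ∈ U, ∀ a b : E → ℝ, m.dens σ τ v₁ v₂ W a b z +
      ∑ k ∈ S, (co k).dens σ τ v₁ v₂ W a b z ≤ ∑ k ∈ S, (mg k).dens σ τ v₁ v₂ W a b z)
    (ha : Te U a) (hb : Te U b) :
    In U θ (m.dens σ τ v₁ v₂ W a b) ≤ TT σ τ U θ v₁ v₂ W a b :=
  T_glue ok ot c hv₁ hv₂ h₁ h₂ hW ha hb S hχ h1 (Q8.int_dens ok ot hv₁ hv₂ hW ha hb cm)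
    (fun k hk => Q8.int_dens ok ot hv₁ hv₂ hW ha hb (cg k hk))
    (fun k hk => Q8.int_dens ok ot hv₁ hv₂ hW ha hb (cc k hk))
    (fun k hk => zone k hk a b ha hb) fun z hz => pay z hz a b

end int

/-- The pointwise payment from eight coefficient inequalities; costs of `a², b²` may be paid by
`(a + b)², (a - b)²` and those of `|X a|²`, `|X b|²` cannot be paid by `|X a - X b|²`. -/
theorem pay_of {α : Type*} {σ τ : Sl E ι} {v₁ v₂ W a b : E → ℝ} {z : E} (S : Finset α) {m : Q8 E}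
    {mg co : α → Q8 E} (s : ℝ)
    (hκ : m.κ z + ∑ k ∈ S, (co k).κ z ≤ ∑ k ∈ S, (mg k).κ z)
    (hζ₁ : m.ζ₁ z + ∑ k ∈ S, (co k).ζ₁ z ≤ ∑ k ∈ S, (mg k).ζ₁ z)
    (hζ₂ : m.ζ₂ z + ∑ k ∈ S, (co k).ζ₂ z ≤ ∑ k ∈ S, (mg k).ζ₂ z)
    (hζy : m.ζy z + ∑ k ∈ S, (co k).ζy z ≤ ∑ k ∈ S, (mg k).ζy z)
    (hw₁ : m.w₁ z + ∑ k ∈ S, (co k).w₁ z ≤ ∑ k ∈ S, (mg k).w₁ z + 2 * s)
    (hw₂ : m.w₂ z + ∑ k ∈ S, (co k).w₂ z ≤ ∑ k ∈ S, (mg k).w₂ z + 2 * s)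
    (hwb : m.wb z + ∑ k ∈ S, (co k).wb z + s ≤ ∑ k ∈ S, (mg k).wb z)
    (hwc : m.wc z + ∑ k ∈ S, (co k).wc z + s ≤ ∑ k ∈ S, (mg k).wc z) :
    m.dens σ τ v₁ v₂ W a b z + ∑ k ∈ S, (co k).dens σ τ v₁ v₂ W a b z ≤
      ∑ k ∈ S, (mg k).dens σ τ v₁ v₂ W a b z := by
  unfold Q8.dens
  simp only [Finset.sum_add_distrib, ← Finset.sum_mul]
  have k0 := sqd_nonneg σ τ v₁ v₂ W a b z
  have k1 := Q8.nX_nonneg σ W a z
  have k2 := Q8.nX_nonneg τ W b z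
  have k3 := Q8.nY_nonneg σ τ W a b z
  have j0 := mul_le_mul_of_nonneg_right hκ k0
  have j1 := mul_le_mul_of_nonneg_right hζ₁ k1
  have j2 := mul_le_mul_of_nonneg_right hζ₂ k2
  have j3 := mul_le_mul_of_nonneg_right hζy k3
  have j4 := mul_le_mul_of_nonneg_right hw₁ (sq_nonneg (a z))
  have j5 := mul_le_mul_of_nonneg_right hw₂ (sq_nonneg (b z))
  have j6 := mul_le_mul_of_nonneg_right hwb (sq_nonneg (a z + b z))
  have j7 := mul_le_mul_of_nonneg_right hwc (sq_nonneg (a z - b z))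
  simp only [add_mul] at j0 j1 j2 j3 j4 j5 j6 j7
  linarith [j0, j1, j2, j3, j4, j5, j6, j7]

end Vale.Agent.P088.R2.H551.E
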