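import Vale.Agent.P088.R2.H961.W.Inst
import Vale.Agent.P088.R2.H269.X.X8

/-!
# P088, stage 3: the slots `slx (fun _ => 1) s`, `sly (fun _ => 1) s` and the operators of SOL3

`T` of the slots is the right side of the a priori estimate of `H269.solKv`.
-/

open MeasureTheory Set Filter
open scoped ContDiff Topology Matrix

noncomputable section

namespace Vale.Agent.P088.R2.H551.E

open Vale.Agent.P088.LR Vale.Agent.P088.HY Vale.Agent.P088.R2.H961.GW
open Vale.Agent.P088.R2.H269 (DX DY GX GY QX QY PX PY DXv DYv QXv QYv PXv PYv)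

variable {n : ℕ} {s s₁ s₂ : MF n} {v v₁ v₂ : V n → ℝ} {W f g a b : VV n → ℝ} {z : VV n}

/-- The flat slots. -/
abbrev fx (s : MF n) : Sl (VV n) (Fin n) := slx (fun _ => 1) s

/-- The flat slots. -/
abbrev fy (s : MF n) : Sl (VV n) (Fin n) := sly (fun _ => 1) s

theorem fx_D (i : Fin n) (f : VV n → ℝ) (z : VV n) : (fx s).D i f z = HY.dx i f z := by
  simp only [Sl.D, slx, one_mul]
  rfl

theorem fy_D (i : Fin n) (f : VV n → ℝ) (z : VV n) : (fy s).D i f z = HY.dy i f z := by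
  simp only [Sl.D, sly, one_mul]
  rfl

theorem fx_k (i : Fin n) (z : VV n) : (fx s).k i z = 0 := by simp [slx, LR.pd]

theorem fy_k (i : Fin n) (z : VV n) : (fy s).k i z = 0 := by simp [sly, LR.pd]

theorem dx_mul' {f g : VV n → ℝ} (hf : DifferentiableAt ℝ f z) (hg : DifferentiableAt ℝ g z)
    (i : Fin n) : HY.dx i (fun w => f w * g w) z = f z * HY.dx i g z + g z * HY.dx i f z := by
  unfold HY.dx
  rw [fderiv_fun_mul hf hg]
  simp only [_root_.add_apply, _root_.smul_apply, smul_eq_mul]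

theorem dy_mul' {f g : VV n → ℝ} (hf : DifferentiableAt ℝ f z) (hg : DifferentiableAt ℝ g z)
    (i : Fin n) : HY.dy i (fun w => f w * g w) z = f z * HY.dy i g z + g z * HY.dy i f z := by
  unfold HY.dy
  rw [fderiv_fun_mul hf hg]
  simp only [_root_.add_apply, _root_.smul_apply, smul_eq_mul]

theorem cd_dx (hf : ContDiff ℝ ∞ f) (i : Fin n) : ContDiff ℝ ∞ (HY.dx i f) :=
  (hf.fderiv_right (m := ∞) (by simp)).clm_apply contDiff_const

theorem cd_dy (hf : ContDiff ℝ ∞ f) (i : Fin n) : ContDiff ℝ ∞ (HY.dy i f) :=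
  (hf.fderiv_right (m := ∞) (by simp)).clm_apply contDiff_const

theorem df_s1 (hs : SmM s) (i j : Fin n) (z : VV n) :
    DifferentiableAt ℝ (fun w : VV n => s w.1 i j) z :=
  (((hs i j).comp contDiff_fst).differentiable (by simp)) z

theorem df_s2 (hs : SmM s) (i j : Fin n) (z : VV n) :
    DifferentiableAt ℝ (fun w : VV n => s w.2 i j) z :=
  (((hs i j).comp contDiff_snd).differentiable (by simp)) z

theorem fx_L (hs : SmM s) (hf : ContDiff ℝ ∞ f) (z : VV n) : (fx s).Λ f z = DX s f z := by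
  unfold Sl.Λ H269.DX
  refine Finset.sum_congr rfl fun i _ => Finset.sum_congr rfl fun j _ => ?_
  have e : ∀ j, (fx s).D j f = HY.dx j f := fun j => funext fun z => fx_D j f z
  rw [dx_mul' (df_s1 hs i j z) (((cd_dx hf j).differentiable (by simp)) z), fx_k, fx_D, e, fx_D]
  have e2 : HY.dx i ((fx s).s i j) z = HY.dx i (fun w : VV n => s w.1 i j) z := rfl
  have e3 : (fx s).s i j z = s z.1 i j := rfl
  rw [e2, e3]
  ring

theorem fy_L (hs : SmM s) (hf : ContDiff ℝ ∞ f) (z : VV n) : (fy s).Λ f z = DY s f z := by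
  unfold Sl.Λ H269.DY
  refine Finset.sum_congr rfl fun i _ => Finset.sum_congr rfl fun j _ => ?_
  have e : ∀ j, (fy s).D j f = HY.dy j f := fun j => funext fun z => fy_D j f z
  rw [dy_mul' (df_s2 hs i j z) (((cd_dy hf j).differentiable (by simp)) z), fy_k, fy_D, e, fy_D]
  have e2 : HY.dy i ((fy s).s i j) z = HY.dy i (fun w : VV n => s w.2 i j) z := rfl
  have e3 : (fy s).s i j z = s z.2 i j := rfl
  rw [e2, e3]
  ring

theorem fx_G (f g : VV n → ℝ) (z : VV n) : (fx s).Γ f g z = GX s f g z := by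
  unfold Sl.Γ H269.GX
  refine Finset.sum_congr rfl fun i _ => Finset.sum_congr rfl fun j _ => ?_
  rw [fx_D, fx_D]
  show s z.1 i j * _ * _ = _
  ring

theorem fy_G (f g : VV n → ℝ) (z : VV n) : (fy s).Γ f g z = GY s f g z := by
  unfold Sl.Γ H269.GY
  refine Finset.sum_congr rfl fun i _ => Finset.sum_congr rfl fun j _ => ?_
  rw [fy_D, fy_D]
  show s z.2 i j * _ * _ = _
  ring

theorem fx_P (hs : SmM s) (hW : ContDiff ℝ ∞ W) (hf : ContDiff ℝ ∞ f) (z : VV n) :
    (fx s).P (fun z => v z.1) W f z = PXv s v W f z := by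
  unfold Sl.P Sl.K Sl.F H269.PXv H269.PX
  rw [fx_L hs hf, fx_L hs hW, fx_G, fx_G]
  ring

theorem fy_P (hs : SmM s) (hW : ContDiff ℝ ∞ W) (hf : ContDiff ℝ ∞ f) (z : VV n) :
    (fy s).P (fun z => v z.2) W f z = PYv s v W f z := by
  unfold Sl.P Sl.K Sl.F H269.PYv H269.PY
  rw [fy_L hs hf, fy_L hs hW, fy_G, fy_G]
  ring

theorem fx_Q (hs : SmM s) (hW : ContDiff ℝ ∞ W) (hf : ContDiff ℝ ∞ f) (z : VV n) :
    (fx s).Q (fun z => v z.1) W f z = QXv s v W f z := by
  unfold Sl.Q Sl.K Sl.F H269.QXv H269.QX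
  rw [fx_L hs hf, fx_L hs hW, fx_G, fx_G]
  ring

theorem fy_Q (hs : SmM s) (hW : ContDiff ℝ ∞ W) (hf : ContDiff ℝ ∞ f) (z : VV n) :
    (fy s).Q (fun z => v z.2) W f z = QYv s v W f z := by
  unfold Sl.Q Sl.K Sl.F H269.QYv H269.QY
  rw [fy_L hs hf, fy_L hs hW, fy_G, fy_G]
  ring

/-- The slots satisfy the rules on every open set, with the density `1`. -/
theorem fx_ok (hs : SmM s) (hy : ∀ x, (s x).IsSymm) {U : Set (VV n)} (hU : IsOpen U) :
    (fx s).Ok U (fun _ => 1) where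
  op := hU
  tp _ _ := one_pos
  ts := contDiffOn_const
  rs := contDiffOn_const
  ss i j := ((hs i j).comp contDiff_fst).contDiffOn
  ks i := by
    have : (fx s).k i = fun _ => 0 := funext fun z => fx_k i z
    rw [this]
    exact contDiffOn_const
  sy i j z := ((hy z.1).apply i j).symm
  th z _ i := by
    have h1 : (fx s).ρ = fun _ => 1 := rfl
    rw [fx_k, D_const, h1]
    simp

/-- The slots satisfy the rules on every open set, with the density `1`. -/
theorem fy_ok (hs : SmM s) (hy : ∀ x, (s x).IsSymm) {U : Set (VV n)} (hU : IsOpen U) :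
    (fy s).Ok U (fun _ => 1) where
  op := hU
  tp _ _ := one_pos
  ts := contDiffOn_const
  rs := contDiffOn_const
  ss i j := ((hs i j).comp contDiff_snd).contDiffOn
  ks i := by
    have : (fy s).k i = fun _ => 0 := funext fun z => fy_k i z
    rw [this]
    exact contDiffOn_const
  sy i j z := ((hy z.2).apply i j).symm
  th z _ i := by
    have h1 : (fy s).ρ = fun _ => 1 := rfl
    rw [fy_k, D_const, h1]
    simp

theorem fx_snd {g : V n → ℝ} (hg : ContDiff ℝ ∞ g) (i : Fin n) (z : VV n) :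
    (fx s).D i (fun z => g z.2) z = 0 :=
  Dx_snd ((hg.differentiable (by simp)) _) i

theorem fy_fst {g : V n → ℝ} (hg : ContDiff ℝ ∞ g) (i : Fin n) (z : VV n) :
    (fy s).D i (fun z => g z.1) z = 0 :=
  Dy_fst ((hg.differentiable (by simp)) _) i

/-- The slots commute. -/
theorem f_cm (h₁ : SmM s₁) (h₂ : SmM s₂) {U : Set (VV n)} (hU : IsOpen U) :
    Cm (fx s₁) (fy s₂) U where
  cc f hf z hz i k := by
    have hs : IsSymmSndFDerivAt ℝ f z := (hf.at hU hz).isSymmSndFDerivAt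
      (by rw [minSmoothness_of_isRCLikeNormedField]; exact WithTop.coe_le_coe.2 le_top)
    have h3 : DifferentiableAt ℝ (fderiv ℝ f) z := by
      have h : ContDiffOn ℝ ∞ (fderiv ℝ f) U := hf.fderiv_of_isOpen hU (by norm_num)
      exact ((h z hz).contDiffAt (hU.mem_nhds hz)).differentiableAt (by simp)
    have e1 : ∀ u v : VV n, fderiv ℝ (fun w => fderiv ℝ f w v) z u =
        fderiv ℝ (fderiv ℝ f) z u v := by
      intro u v
      have := fderiv_clm_apply h3 (differentiableAt_const v)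
      rw [this]
      simp
    have a1 : (fx s₁).D i ((fy s₂).D k f) z =
        fderiv ℝ (fun w : VV n => fderiv ℝ f w (0, Pi.single k 1)) z (Pi.single i 1, 0) := by
      have : (fy s₂).D k f = fun w : VV n => fderiv ℝ f w (0, Pi.single k 1) :=
        funext fun w => fy_D k f w
      rw [this, fx_D]
      rfl
    have a2 : (fy s₂).D k ((fx s₁).D i f) z =
        fderiv ℝ (fun w : VV n => fderiv ℝ f w (Pi.single i 1, 0)) z (0, Pi.single k 1) := by
      have : (fx s₁).D i f = fun w : VV n => fderiv ℝ f w (Pi.single i 1, 0) :=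
        funext fun w => fx_D i f w
      rw [this, fy_D]
      rfl
    rw [a1, a2, e1, e1]
    exact hs (Pi.single i 1, 0) (0, Pi.single k 1)
  s1 z _ i k l := fx_snd (h₂ k l) i z
  k1 z _ i k := by
    have : (fy s₂).k k = fun _ => 0 := funext fun z => fy_k k z
    rw [this, D_const]
  s2 z _ k i j := fy_fst (h₁ i j) k z
  k2 z _ k i := by
    have : (fx s₁).k i = fun _ => 0 := funext fun z => fx_k i z
    rw [this, D_const]

theorem Te_univ {f : VV n → ℝ} : Te univ f ↔ ContDiff ℝ ∞ f ∧ HasCompactSupport f :=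
  ⟨fun h => ⟨h.1, h.2.1⟩, fun h => ⟨h.1, h.2, subset_univ _⟩⟩

theorem In_univ (f : VV n → ℝ) : In univ (fun _ => 1) f = ∫ z, f z := by
  unfold In
  rw [Measure.restrict_univ]
  simp only [one_mul]

theorem te_itg {f : VV n → ℝ} (hf : Te univ f) : Integrable f :=
  hf.1.continuous.integrable_of_hasCompactSupport hf.2.1

/-- **`T` in the flat slots is the right side of the estimate of SOL3.** -/
theorem TT_flat (hs₁ : SmM s₁) (hs₂ : SmM s₂) (hy₁ : ∀ x, (s₁ x).IsSymm)
    (hy₂ : ∀ x, (s₂ x).IsSymm) (hv₁ : ContDiff ℝ ∞ v₁) (hv₂ : ContDiff ℝ ∞ v₂)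
    (hW : ContDiff ℝ ∞ W) (ha : Te univ a) (hb : Te univ b) :
    TT (fx s₁) (fy s₂) univ (fun _ => 1) (fun z => v₁ z.1) (fun z => v₂ z.2) W a b =
      ∫ z, ((QXv s₁ v₁ W a z + QYv s₂ v₂ W b z) ^ 2 +
        1 * (PYv s₂ v₂ W a z - PXv s₁ v₁ W b z) ^ 2) := by
  have ox := fx_ok hs₁ hy₁ isOpen_univ
  have oy := fy_ok hs₂ hy₂ isOpen_univ
  have w₁ : Sm univ fun z : VV n => v₁ z.1 := (hv₁.comp contDiff_fst).contDiffOn
  have w₂ : Sm univ fun z : VV n => v₂ z.2 := (hv₂.comp contDiff_snd).contDiffOn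
  have hW' : Sm univ W := hW.contDiffOn
  have i₁ := te_itg (((ox.tQ w₁ hW' ha).add isOpen_univ (oy.tQ w₂ hW' hb)).sq isOpen_univ)
  have i₂ := te_itg (((oy.tP w₂ hW' ha).sub isOpen_univ (ox.tP w₁ hW' hb)).sq isOpen_univ)
  unfold TT
  rw [In_univ, In_univ, ← integral_add i₁ i₂]
  simp only [fx_Q hs₁ hW ha.1, fy_Q hs₂ hW hb.1, fy_P hs₂ hW ha.1, fx_P hs₁ hW hb.1, one_mul]

end Vale.Agent.P088.R2.H551.E
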