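import Vale.Agent.P088.R2.H558.Defs
import Mathlib.Analysis.SpecialFunctions.SmoothTransition

/-!
# P088, stage 3: localised gains

`c2 = 1` for `|x| ≤ 2`, `c2 = 0` for `|x|² ≥ 5`. `gf` are the first order quantities of the
perturbation, those of the slot `x` for `|x|² ≤ 5`, those of the slot `y` for `|y|² ≤ 5`.
-/

open MeasureTheory Set Filter
open scoped ContDiff Topology Matrix

noncomputable section

namespace Vale.Agent.P088.R2.H551.E

open Vale.Agent.P088.LR Vale.Agent.P088.HY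

variable {n : ℕ}

/-- A cut-off, `1` on the ball of radius `2`. -/
def c2 (x : V n) : ℝ := Real.smoothTransition (5 - HY.sq x)

theorem c2_smooth : ContDiff ℝ ∞ (c2 (n := n)) := by
  unfold c2
  refine Real.smoothTransition.contDiff.comp (contDiff_const.sub ?_)
  unfold HY.sq
  exact ContDiff.sum fun i _ => (contDiff_apply ℝ ℝ i).pow 2

theorem c2_nonneg (x : V n) : 0 ≤ c2 x := Real.smoothTransition.nonneg _

theorem c2_le_one (x : V n) : c2 x ≤ 1 := Real.smoothTransition.le_one _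

theorem c2_one {x : V n} (h : HY.sq x ≤ 4) : c2 x = 1 :=
  Real.smoothTransition.one_of_one_le (by linarith)

theorem c2_zero {x : V n} (h : 5 ≤ HY.sq x) : c2 x = 0 :=
  Real.smoothTransition.zero_of_nonpos (by linarith)

/-- The first order quantities with a cut-off `c` in both slots. -/
def gfc (c : V n → ℝ) (W a₁ a₂ : VV n → ℝ) (z : VV n) : ℝ :=
  ∑ i, (c z.1 * ((HY.dx i a₁ z - HY.dx i W z * a₁ z) ^ 2 +
    (HY.dx i a₂ z + HY.dx i W z * a₂ z) ^ 2) +
    c z.2 * ((HY.dy i a₁ z + HY.dy i W z * a₁ z) ^ 2 +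
    (HY.dy i a₂ z - HY.dy i W z * a₂ z) ^ 2))

/-- The localised gain of first order. -/
def gf (W a₁ a₂ : VV n → ℝ) (z : VV n) : ℝ :=
  ∑ i, (c2 z.1 * ((HY.dx i a₁ z - HY.dx i W z * a₁ z) ^ 2 +
    (HY.dx i a₂ z + HY.dx i W z * a₂ z) ^ 2) +
    c2 z.2 * ((HY.dy i a₁ z + HY.dy i W z * a₁ z) ^ 2 +
    (HY.dy i a₂ z - HY.dy i W z * a₂ z) ^ 2))

theorem gf_eq (W a₁ a₂ : VV n → ℝ) (z : VV n) : gf W a₁ a₂ z = gfc c2 W a₁ a₂ z := rfl

theorem gfc_nonneg {c : V n → ℝ} (hc : ∀ x, 0 ≤ c x) (W a₁ a₂ : VV n → ℝ) (z : VV n) :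
    0 ≤ gfc c W a₁ a₂ z := by
  unfold gfc
  have h1 := hc z.1
  have h2 := hc z.2
  exact Finset.sum_nonneg fun i _ => by positivity

theorem gf_nonneg (W a₁ a₂ : VV n → ℝ) (z : VV n) : 0 ≤ gf W a₁ a₂ z :=
  gfc_nonneg c2_nonneg W a₁ a₂ z

end Vale.Agent.P088.R2.H551.E
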