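import Vale.Agent.P088.R2.H551.E.GDef
import Vale.Agent.P088.R2.H551.E.Gl

/-!
# P088, stage 3: the estimate with localised gains (`EstF`), scaling
-/

open MeasureTheory Set Filter
open scoped ContDiff Topology Matrix

noncomputable section

namespace Vale.Agent.P088.R2.H551.E

open Vale.Agent.P088.LR Vale.Agent.P088.HY
open Vale.Agent.P088.R2.H269 (QX QY PX PY DX DY GX GY)

variable {n : ℕ} {s s₁ s₂ : MF n} {W w f g a b : VV n → ℝ} {z : VV n} {R : ℝ} {c : V n → ℝ}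

/-- The estimate with the gain `g` of the first order quantities cut off by `c` and the gain `G` of
order zero. -/
def EstF (s₁ s₂ : MF n) (W w : VV n → ℝ) (g G : ℝ) (c : V n → ℝ) : Prop :=
  ∀ a₁ a₂ : VV n → ℝ, ContDiff ℝ ∞ a₁ → HasCompactSupport a₁ → ContDiff ℝ ∞ a₂ →
    HasCompactSupport a₂ →
    (∫ z, w z * (a₁ z ^ 2 + a₂ z ^ 2)) + g * (∫ z, gfc c W a₁ a₂ z) +
      G * ∫ z, (a₁ z ^ 2 + a₂ z ^ 2) ≤
      ∫ z, ((QX s₁ W a₁ z + QY s₂ W a₂ z) ^ 2 + (PY s₂ W a₁ z - PX s₁ W a₂ z) ^ 2)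

/-- With weights `o₁ = o₂ = 1` of the squares. -/
theorem EstF.est {g₀ G₀ C₂ : ℝ} (h : EstF s₁ s₂ W w g₀ G₀ c2) (hC : 1 ≤ C₂) :
    ∃ o₁ o₂ : VV n → ℝ, Continuous o₁ ∧ Continuous o₂ ∧ (∀ z, 0 < o₁ z ∧ o₁ z ≤ C₂) ∧
    (∀ z, 0 < o₂ z ∧ o₂ z ≤ C₂) ∧
    ∀ a₁ a₂ : VV n → ℝ, ContDiff ℝ ∞ a₁ → HasCompactSupport a₁ → ContDiff ℝ ∞ a₂ →
      HasCompactSupport a₂ →
      (∫ z, w z * (a₁ z ^ 2 + a₂ z ^ 2)) + g₀ * (∫ z, gf W a₁ a₂ z) +
        G₀ * ∫ z, (a₁ z ^ 2 + a₂ z ^ 2) ≤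
        ∫ z, (o₁ z * (QX s₁ W a₁ z + QY s₂ W a₂ z) ^ 2 +
          o₂ z * (PY s₂ W a₁ z - PX s₁ W a₂ z) ^ 2) := by
  refine ⟨fun _ => 1, fun _ => 1, continuous_const, continuous_const,
    fun _ => ⟨one_pos, hC⟩, fun _ => ⟨one_pos, hC⟩, fun a₁ a₂ h1 h2 h3 h4 => ?_⟩
  have := h a₁ a₂ h1 h2 h3 h4
  simp only [one_mul]
  exact this

open Vale.Agent.P088.R2.H269 (Tt) in
open Vale.Agent.P088.S4.H437 in
theorem tt_gfc {W a₁ a₂ : VV n → ℝ} (hc : ContDiff ℝ ∞ c) (hW : ContDiff ℝ ∞ W)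
    (h1 : Tt univ a₁) (h2 : Tt univ a₂) : Tt univ (gfc c W a₁ a₂) := by
  unfold gfc
  refine tt_sum _ fun i => tt_add (tt_mulL (s_fst hc) (tt_add ?_ ?_))
    (tt_mulL (s_snd hc) (tt_add ?_ ?_))
  · exact tt_sq (tt_sub (tt_dx h1 i) (tt_mulL (H269.S.dx hW i) h1))
  · exact tt_sq (tt_add (tt_dx h2 i) (tt_mulL (H269.S.dx hW i) h2))
  · exact tt_sq (tt_add (tt_dy h1 i) (tt_mulL (H269.S.dy hW i) h1))
  · exact tt_sq (tt_sub (tt_dy h2 i) (tt_mulL (H269.S.dy hW i) h2))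

theorem gfc_dil (r : ℝ) (c : V n → ℝ) (W a b : VV n → ℝ) (z : VV n) :
    gfc (fun x => c (r • x)) (dil r W) (dil r a) (dil r b) z = r ^ 2 * gfc c W a b (r • z) := by
  unfold gfc
  simp only [dx_dil, dy_dil]
  rw [Finset.mul_sum]
  refine Finset.sum_congr rfl fun i _ => ?_
  rw [Prod.smul_fst, Prod.smul_snd]
  unfold dil
  ring

/-- **Scaling.** The estimate in rate units gives the estimate in the original units. -/
theorem EstF_scale (hR : 0 < R) {g G : ℝ} {w' : VV n → ℝ}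
    (h : EstF (dim R⁻¹ s₁) (dim R⁻¹ s₂) (dil R⁻¹ W) w' g G (fun x => c (R⁻¹ • x))) :
    EstF s₁ s₂ W (fun z => R ^ 4 * w' (R • z)) (R ^ 2 * g) (R ^ 4 * G) c := by
  intro a b ha ca hb cb
  have hr : R * R⁻¹ = 1 := mul_inv_cancel₀ hR.ne'
  have sm : ∀ f : VV n → ℝ, ContDiff ℝ ∞ f → ContDiff ℝ ∞ (dil R⁻¹ f) := fun f hf =>
    hf.comp (contDiff_const_smul _)
  have cs : ∀ f : VV n → ℝ, HasCompactSupport f → HasCompactSupport (dil R⁻¹ f) := fun f hf =>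
    hf.comp_homeomorph (Homeomorph.smulOfNeZero R⁻¹ (inv_ne_zero hR.ne'))
  have k := h (dil R⁻¹ a) (dil R⁻¹ b) (sm a ha) (cs a ca) (sm b hb) (cs b cb)
  obtain ⟨r, hrr⟩ : ∃ r : ℝ, r = R⁻¹ := ⟨_, rfl⟩
  rw [← hrr] at k
  have hRc : R * r = 1 := by rw [hrr, hr]
  have c0 : 0 < r := by rw [hrr]; positivity
  obtain ⟨κ, hκ⟩ : ∃ κ : ℝ, κ = |(r ^ Module.finrank ℝ (VV n))⁻¹| := ⟨_, rfl⟩
  have κ0 : 0 < κ := by rw [hκ]; positivity
  have e1 : (∫ z, w' z * (dil r a z ^ 2 + dil r b z ^ 2)) =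
      κ * ∫ z, w' (R • z) * (a z ^ 2 + b z ^ 2) := by
    rw [hκ, ← int_dil]
    refine integral_congr_ae (ae_of_all _ fun z => ?_)
    simp only
    rw [smul_smul, hRc, one_smul]
    rfl
  have e2 : (∫ z, gfc (fun x => c (r • x)) (dil r W) (dil r a) (dil r b) z) =
      κ * (r ^ 2 * ∫ z, gfc c W a b z) := by
    rw [hκ, ← integral_const_mul, ← int_dil]
    exact integral_congr_ae (ae_of_all _ fun z => gfc_dil r c W a b z)
  have e2' : (∫ z, (dil r a z ^ 2 + dil r b z ^ 2)) = κ * ∫ z, (a z ^ 2 + b z ^ 2) := by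
    rw [hκ, ← int_dil]
    rfl
  have e3 : (∫ z, ((QX (dim r s₁) (dil r W) (dil r a) z + QY (dim r s₂) (dil r W) (dil r b) z) ^ 2 +
      (PY (dim r s₂) (dil r W) (dil r a) z - PX (dim r s₁) (dil r W) (dil r b) z) ^ 2)) =
      κ * (r ^ 4 * ∫ z, ((QX s₁ W a z + QY s₂ W b z) ^ 2 +
        (PY s₂ W a z - PX s₁ W b z) ^ 2)) := by
    rw [hκ, ← integral_const_mul, ← int_dil]
    refine integral_congr_ae (ae_of_all _ fun z => ?_)
    simp only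
    rw [QX_dil, QY_dil, PY_dil, PX_dil]
    ring
  rw [e1, e2, e2', e3] at k
  have k2 : (∫ z, w' (R • z) * (a z ^ 2 + b z ^ 2)) + g * (r ^ 2 * ∫ z, gfc c W a b z) +
      G * ∫ z, (a z ^ 2 + b z ^ 2) ≤ r ^ 4 * ∫ z, ((QX s₁ W a z + QY s₂ W b z) ^ 2 +
        (PY s₂ W a z - PX s₁ W b z) ^ 2) := by
    refine le_of_mul_le_mul_left ?_ κ0
    linarith
  have k5 := mul_le_mul_of_nonneg_left k2 (show 0 ≤ R ^ 4 by positivity)
  have r4 : R ^ 4 * r ^ 4 = 1 := by rw [← mul_pow, hRc, one_pow]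
  have r2 : R ^ 4 * r ^ 2 = R ^ 2 := by
    calc R ^ 4 * r ^ 2 = R ^ 2 * (R * r) ^ 2 := by ring
      _ = R ^ 2 := by rw [hRc]; ring
  have e5 : (∫ z, R ^ 4 * w' (R • z) * (a z ^ 2 + b z ^ 2)) =
      R ^ 4 * ∫ z, w' (R • z) * (a z ^ 2 + b z ^ 2) := by
    rw [← integral_const_mul]
    exact integral_congr_ae (ae_of_all _ fun z => by simp only; ring)
  rw [e5]
  have k6 : R ^ 4 * (∫ z, w' (R • z) * (a z ^ 2 + b z ^ 2)) + (R ^ 4 * r ^ 2) * g *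
      (∫ z, gfc c W a b z) + R ^ 4 * G * (∫ z, (a z ^ 2 + b z ^ 2)) ≤
      (R ^ 4 * r ^ 4) * ∫ z, ((QX s₁ W a z + QY s₂ W b z) ^ 2 +
        (PY s₂ W a z - PX s₁ W b z) ^ 2) := by
    linarith
  rw [r4, r2, one_mul] at k6
  exact k6

/-- Constants may be subtracted from the weight. -/
theorem EstF_shift (k : ℝ) {g G : ℝ} (h : EstF s₁ s₂ W w g G c) :
    EstF s₁ s₂ (fun z => W z - k) w g G c := by
  intro a b ha ca hb cb
  have k := h a b ha ca hb cb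
  unfold H269.QX H269.QY H269.PX H269.PY H269.DX H269.DY H269.GX H269.GY gfc at *
  simp only [dx_shift, dy_shift]
  exact k

/-- **From rate units to the unit chart**, with a constant subtracted. -/
theorem EstF_unit (hR : 0 < R) (k : ℝ) {g G : ℝ} {w' : VV n → ℝ}
    (h : EstF (fun x => s₁ (R⁻¹ • x)) (fun x => s₂ (R⁻¹ • x)) W w' g G
      (fun x => c (R⁻¹ • x))) :
    EstF s₁ s₂ (fun z => W (R • z) - k) (fun z => R ^ 4 * w' (R • z)) (R ^ 2 * g)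
      (R ^ 4 * G) c := by
  refine EstF_shift k ?_
  refine EstF_scale hR ?_
  have e : dil R⁻¹ (fun z => W (R • z)) = W := dil_dil (inv_mul_cancel₀ hR.ne') W
  rw [e]
  exact h

/-- Smaller gains, a smaller weight. -/
theorem EstF.mono {g g' G G' : ℝ} {w' : VV n → ℝ} (h : EstF s₁ s₂ W w g G c) (hg : g' ≤ g)
    (hG : G' ≤ G) (c0 : ∀ x, 0 ≤ c x) (cw : Continuous w) (cw' : Continuous w')
    (hw : ∀ z, w' z ≤ w z) : EstF s₁ s₂ W w' g' G' c := by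
  intro a b ha ca hb cb
  refine le_trans ?_ (h a b ha ca hb cb)
  have ta : H269.Tt univ a := ⟨ha, ca, subset_univ _⟩
  have tb : H269.Tt univ b := ⟨hb, cb, subset_univ _⟩
  have tab := S4.H437.tt_add (S4.H437.tt_sq ta) (S4.H437.tt_sq tb)
  have h1 : (∫ z, w' z * (a z ^ 2 + b z ^ 2)) ≤ ∫ z, w z * (a z ^ 2 + b z ^ 2) :=
    integral_mono (S4.H437.int_ct cw' tab) (S4.H437.int_ct cw tab) fun z =>
      mul_le_mul_of_nonneg_right (hw z) (by positivity)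
  have h2 : g' * ∫ z, gfc c W a b z ≤ g * ∫ z, gfc c W a b z :=
    mul_le_mul_of_nonneg_right hg (integral_nonneg fun z => gfc_nonneg c0 W a b z)
  have h3 : G' * ∫ z, (a z ^ 2 + b z ^ 2) ≤ G * ∫ z, (a z ^ 2 + b z ^ 2) :=
    mul_le_mul_of_nonneg_right hG (integral_nonneg fun z => by positivity)
  linarith

end Vale.Agent.P088.R2.H551.E
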