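import Vale.Agent.P088.R2.H437.ESTN

/-!
# P088, stage 3: the estimate with gains as a definition, scaling

`EstG_scale`: the estimate in rate units (all lengths multiplied by `R`) gives the estimate for
the original metrics and weight, with `w(z) = R⁴ w'(R z)` and the gain `R² G`.
-/

open MeasureTheory Set Filter
open scoped ContDiff Topology Matrix

noncomputable section

namespace Vale.Agent.P088.R2.H551.E

open Vale.Agent.P088.LR Vale.Agent.P088.HY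
open Vale.Agent.P088.R2.H269 (QX QY PX PY DX DY GX GY)
open Vale.Agent.P088.S4.H437 (gn)

variable {n : ℕ} {s s₁ s₂ : MF n} {W w f g a b : VV n → ℝ} {z : VV n} {R : ℝ}

/-- The estimate with gains, the weights of the squares equal to `1`. -/
def EstG (s₁ s₂ : MF n) (W w : VV n → ℝ) (G₀ : ℝ) : Prop :=
  ∀ a₁ a₂ : VV n → ℝ, ContDiff ℝ ∞ a₁ → HasCompactSupport a₁ → ContDiff ℝ ∞ a₂ →
    HasCompactSupport a₂ →
    (∫ z, w z * (a₁ z ^ 2 + a₂ z ^ 2)) + G₀ * ∫ z, gn W a₁ a₂ z ≤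
      ∫ z, ((QX s₁ W a₁ z + QY s₂ W a₂ z) ^ 2 + (PY s₂ W a₁ z - PX s₁ W a₂ z) ^ 2)

theorem EstG.est {G₀ C₂ : ℝ} (h : EstG s₁ s₂ W w G₀) (hC : 1 ≤ C₂) :
    ∃ o₁ o₂ : VV n → ℝ, Continuous o₁ ∧ Continuous o₂ ∧ (∀ z, 0 < o₁ z ∧ o₁ z ≤ C₂) ∧
    (∀ z, 0 < o₂ z ∧ o₂ z ≤ C₂) ∧
    ∀ a₁ a₂ : VV n → ℝ, ContDiff ℝ ∞ a₁ → HasCompactSupport a₁ → ContDiff ℝ ∞ a₂ →
      HasCompactSupport a₂ →
      (∫ z, w z * (a₁ z ^ 2 + a₂ z ^ 2)) + G₀ * ∫ z, gn W a₁ a₂ z ≤
        ∫ z, (o₁ z * (QX s₁ W a₁ z + QY s₂ W a₂ z) ^ 2 +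
          o₂ z * (PY s₂ W a₁ z - PX s₁ W a₂ z) ^ 2) := by
  refine ⟨fun _ => 1, fun _ => 1, continuous_const, continuous_const,
    fun _ => ⟨one_pos, hC⟩, fun _ => ⟨one_pos, hC⟩, fun a₁ a₂ h1 h2 h3 h4 => ?_⟩
  have := h a₁ a₂ h1 h2 h3 h4
  simpa only [one_mul] using this


/-- Dilation of functions. -/
def dil (c : ℝ) (f : VV n → ℝ) (z : VV n) : ℝ := f (c • z)

/-- Dilation of tensors. -/
def dim (c : ℝ) (s : MF n) : MF n := fun x => s (c • x)

theorem dil_dil {c d : ℝ} (h : c * d = 1) (f : VV n → ℝ) : dil c (dil d f) = f := by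
  funext z
  unfold dil
  rw [smul_smul, mul_comm, h, one_smul]

theorem dx_dil (c : ℝ) (f : VV n → ℝ) (i : Fin n) (z : VV n) :
    HY.dx i (dil c f) z = c * HY.dx i f (c • z) := by
  unfold HY.dx dil
  rw [fderiv_comp_smul]
  rfl

theorem dy_dil (c : ℝ) (f : VV n → ℝ) (i : Fin n) (z : VV n) :
    HY.dy i (dil c f) z = c * HY.dy i f (c • z) := by
  unfold HY.dy dil
  rw [fderiv_comp_smul]
  rfl

theorem dx_smul (c : ℝ) (f : VV n → ℝ) (i : Fin n) (z : VV n) :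
    HY.dx i (fun z => c * f z) z = c * HY.dx i f z := by
  unfold HY.dx
  have : (fun z => c * f z) = c • f := rfl
  rw [this, fderiv_const_smul_field]
  rfl

theorem dy_smul (c : ℝ) (f : VV n → ℝ) (i : Fin n) (z : VV n) :
    HY.dy i (fun z => c * f z) z = c * HY.dy i f z := by
  unfold HY.dy
  have : (fun z => c * f z) = c • f := rfl
  rw [this, fderiv_const_smul_field]
  rfl

theorem DX_dil (c : ℝ) (s : MF n) (f : VV n → ℝ) (z : VV n) :
    DX (dim c s) (dil c f) z = c ^ 2 * DX s f (c • z) := by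
  unfold H269.DX
  rw [Finset.mul_sum]
  refine Finset.sum_congr rfl fun i _ => ?_
  rw [Finset.mul_sum]
  refine Finset.sum_congr rfl fun j _ => ?_
  have e : (fun w : VV n => dim c s w.1 i j * HY.dx j (dil c f) w) =
      fun w => c * dil c (fun w : VV n => s w.1 i j * HY.dx j f w) w := by
    funext w
    rw [dx_dil]
    unfold dil dim
    show _ = c * (s (c • w).1 i j * _)
    rw [Prod.smul_fst]
    ring
  rw [e, dx_smul, dx_dil]
  ring

theorem DY_dil (c : ℝ) (s : MF n) (f : VV n → ℝ) (z : VV n) :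
    DY (dim c s) (dil c f) z = c ^ 2 * DY s f (c • z) := by
  unfold H269.DY
  rw [Finset.mul_sum]
  refine Finset.sum_congr rfl fun i _ => ?_
  rw [Finset.mul_sum]
  refine Finset.sum_congr rfl fun j _ => ?_
  have e : (fun w : VV n => dim c s w.2 i j * HY.dy j (dil c f) w) =
      fun w => c * dil c (fun w : VV n => s w.2 i j * HY.dy j f w) w := by
    funext w
    rw [dy_dil]
    unfold dil dim
    show _ = c * (s (c • w).2 i j * _)
    rw [Prod.smul_snd]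
    ring
  rw [e, dy_smul, dy_dil]
  ring

theorem GX_dil (c : ℝ) (s : MF n) (f g : VV n → ℝ) (z : VV n) :
    GX (dim c s) (dil c f) (dil c g) z = c ^ 2 * GX s f g (c • z) := by
  unfold H269.GX
  rw [Finset.mul_sum]
  refine Finset.sum_congr rfl fun i _ => ?_
  rw [Finset.mul_sum]
  refine Finset.sum_congr rfl fun j _ => ?_
  rw [dx_dil, dx_dil]
  unfold dim
  rw [Prod.smul_fst]
  ring

theorem GY_dil (c : ℝ) (s : MF n) (f g : VV n → ℝ) (z : VV n) :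
    GY (dim c s) (dil c f) (dil c g) z = c ^ 2 * GY s f g (c • z) := by
  unfold H269.GY
  rw [Finset.mul_sum]
  refine Finset.sum_congr rfl fun i _ => ?_
  rw [Finset.mul_sum]
  refine Finset.sum_congr rfl fun j _ => ?_
  rw [dy_dil, dy_dil]
  unfold dim
  rw [Prod.smul_snd]
  ring

theorem QX_dil (c : ℝ) (s : MF n) (W f : VV n → ℝ) (z : VV n) :
    QX (dim c s) (dil c W) (dil c f) z = c ^ 2 * QX s W f (c • z) := by
  unfold H269.QX
  rw [DX_dil, DX_dil, GX_dil, GX_dil]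
  unfold dil
  ring

theorem PX_dil (c : ℝ) (s : MF n) (W f : VV n → ℝ) (z : VV n) :
    PX (dim c s) (dil c W) (dil c f) z = c ^ 2 * PX s W f (c • z) := by
  unfold H269.PX
  rw [DX_dil, DX_dil, GX_dil, GX_dil]
  unfold dil
  ring

theorem QY_dil (c : ℝ) (s : MF n) (W f : VV n → ℝ) (z : VV n) :
    QY (dim c s) (dil c W) (dil c f) z = c ^ 2 * QY s W f (c • z) := by
  unfold H269.QY
  rw [DY_dil, DY_dil, GY_dil, GY_dil]
  unfold dil
  ring

theorem PY_dil (c : ℝ) (s : MF n) (W f : VV n → ℝ) (z : VV n) :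
    PY (dim c s) (dil c W) (dil c f) z = c ^ 2 * PY s W f (c • z) := by
  unfold H269.PY
  rw [DY_dil, DY_dil, GY_dil, GY_dil]
  unfold dil
  ring

theorem gn_dil (c : ℝ) (W a b : VV n → ℝ) (z : VV n) :
    gn (dil c W) (dil c a) (dil c b) z = c ^ 2 * gn W a b (c • z) +
      (1 - c ^ 2) * (a (c • z) ^ 2 + b (c • z) ^ 2) := by
  unfold S4.H437.gn
  simp only [dx_dil, dy_dil]
  rw [mul_add, Finset.mul_sum]
  have e : ∑ i, ((c * HY.dx i a (c • z) - c * HY.dx i W (c • z) * dil c a z) ^ 2 +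
      (c * HY.dy i a (c • z) + c * HY.dy i W (c • z) * dil c a z) ^ 2 +
      (c * HY.dy i b (c • z) - c * HY.dy i W (c • z) * dil c b z) ^ 2 +
      (c * HY.dx i b (c • z) + c * HY.dx i W (c • z) * dil c b z) ^ 2) =
      ∑ i, c ^ 2 * ((HY.dx i a (c • z) - HY.dx i W (c • z) * a (c • z)) ^ 2 +
      (HY.dy i a (c • z) + HY.dy i W (c • z) * a (c • z)) ^ 2 +
      (HY.dy i b (c • z) - HY.dy i W (c • z) * b (c • z)) ^ 2 +
      (HY.dx i b (c • z) + HY.dx i W (c • z) * b (c • z)) ^ 2) := by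
    refine Finset.sum_congr rfl fun i _ => ?_
    unfold dil
    ring
  rw [e]
  unfold dil
  ring

theorem int_dil (c : ℝ) (F : VV n → ℝ) :
    ∫ z, F (c • z) = |(c ^ Module.finrank ℝ (VV n))⁻¹| * ∫ z, F z := by
  rw [Measure.integral_comp_smul, smul_eq_mul]

/-- **Scaling.** The estimate in rate units gives the estimate in the original units. -/
theorem EstG_scale (hR : 1 ≤ R) (hs₁ : SmM s₁) (hs₂ : SmM s₂) (hW : ContDiff ℝ ∞ W) {G : ℝ}
    (hG : 0 ≤ G) {w' : VV n → ℝ} (cw : Continuous w')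
    (h : EstG (dim R⁻¹ s₁) (dim R⁻¹ s₂) (dil R⁻¹ W) w' G) :
    EstG s₁ s₂ W (fun z => R ^ 4 * w' (R • z)) (R ^ 2 * G) := by
  intro a b ha ca hb cb
  have hR0 : 0 < R := one_pos.trans_le hR
  have hr : R * R⁻¹ = 1 := mul_inv_cancel₀ hR0.ne'
  have sm : ∀ f : VV n → ℝ, ContDiff ℝ ∞ f → ContDiff ℝ ∞ (dil R⁻¹ f) := fun f hf =>
    hf.comp (contDiff_const_smul _)
  have cs : ∀ f : VV n → ℝ, HasCompactSupport f → HasCompactSupport (dil R⁻¹ f) := fun f hf =>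
    hf.comp_homeomorph (Homeomorph.smulOfNeZero R⁻¹ (inv_ne_zero hR0.ne'))
  have k := h (dil R⁻¹ a) (dil R⁻¹ b) (sm a ha) (cs a ca) (sm b hb) (cs b cb)
  obtain ⟨c, hc⟩ : ∃ c : ℝ, c = R⁻¹ := ⟨_, rfl⟩
  rw [← hc] at k
  have hRc : R * c = 1 := by rw [hc, hr]
  have c0 : 0 < c := by rw [hc]; positivity
  have c1 : c ≤ 1 := by rw [hc]; exact inv_le_one_of_one_le₀ hR
  obtain ⟨κ, hκ⟩ : ∃ κ : ℝ, κ = |(c ^ Module.finrank ℝ (VV n))⁻¹| := ⟨_, rfl⟩
  have κ0 : 0 < κ := by rw [hκ]; positivity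
  have e1 : (∫ z, w' z * (dil c a z ^ 2 + dil c b z ^ 2)) =
      κ * ∫ z, w' (R • z) * (a z ^ 2 + b z ^ 2) := by
    rw [hκ, ← int_dil]
    refine integral_congr_ae (ae_of_all _ fun z => ?_)
    simp only
    rw [smul_smul, hRc, one_smul]
    rfl
  have e2 : (∫ z, gn (dil c W) (dil c a) (dil c b) z) =
      κ * ∫ z, (c ^ 2 * gn W a b z + (1 - c ^ 2) * (a z ^ 2 + b z ^ 2)) := by
    rw [hκ, ← int_dil]
    exact integral_congr_ae (ae_of_all _ fun z => gn_dil c W a b z)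
  have e3 : (∫ z, ((QX (dim c s₁) (dil c W) (dil c a) z + QY (dim c s₂) (dil c W) (dil c b) z) ^ 2 +
      (PY (dim c s₂) (dil c W) (dil c a) z - PX (dim c s₁) (dil c W) (dil c b) z) ^ 2)) =
      κ * (c ^ 4 * ∫ z, ((QX s₁ W a z + QY s₂ W b z) ^ 2 +
        (PY s₂ W a z - PX s₁ W b z) ^ 2)) := by
    rw [hκ, ← integral_const_mul, ← int_dil]
    refine integral_congr_ae (ae_of_all _ fun z => ?_)
    simp only
    rw [QX_dil, QY_dil, PY_dil, PX_dil]
    ring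
  have ta : H269.Tt univ a := ⟨ha, ca, subset_univ _⟩
  have tb : H269.Tt univ b := ⟨hb, cb, subset_univ _⟩
  have tg := S4.H437.tt_gn hW ta tb
  have ig : Integrable (gn W a b) := tg.s.continuous.integrable_of_hasCompactSupport tg.c
  have iab : Integrable fun z => a z ^ 2 + b z ^ 2 := by
    have t := S4.H437.tt_add (S4.H437.tt_sq ta) (S4.H437.tt_sq tb)
    exact t.s.continuous.integrable_of_hasCompactSupport t.c
  have e4 : c ^ 2 * ∫ z, gn W a b z ≤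
      ∫ z, (c ^ 2 * gn W a b z + (1 - c ^ 2) * (a z ^ 2 + b z ^ 2)) := by
    rw [← integral_const_mul]
    refine integral_mono (ig.const_mul _) ((ig.const_mul _).add (iab.const_mul _)) fun z => ?_
    have : 0 ≤ (1 - c ^ 2) * (a z ^ 2 + b z ^ 2) := by
      have : c ^ 2 ≤ 1 := by nlinarith
      exact mul_nonneg (by linarith) (by positivity)
    simp only
    linarith
  rw [e1, e2, e3] at k
  have k2 : (∫ z, w' (R • z) * (a z ^ 2 + b z ^ 2)) + G * ∫ z, (c ^ 2 * gn W a b z +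
      (1 - c ^ 2) * (a z ^ 2 + b z ^ 2)) ≤ c ^ 4 * ∫ z, ((QX s₁ W a z + QY s₂ W b z) ^ 2 +
        (PY s₂ W a z - PX s₁ W b z) ^ 2) := by
    refine le_of_mul_le_mul_left ?_ κ0
    linarith
  have k3 := mul_le_mul_of_nonneg_left e4 hG
  have k4 : (∫ z, w' (R • z) * (a z ^ 2 + b z ^ 2)) + G * (c ^ 2 * ∫ z, gn W a b z) ≤
      c ^ 4 * ∫ z, ((QX s₁ W a z + QY s₂ W b z) ^ 2 + (PY s₂ W a z - PX s₁ W b z) ^ 2) := by
    linarith
  have k5 := mul_le_mul_of_nonneg_left k4 (show 0 ≤ R ^ 4 by positivity)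
  have r4 : R ^ 4 * c ^ 4 = 1 := by rw [← mul_pow, hRc, one_pow]
  have r2 : R ^ 4 * c ^ 2 = R ^ 2 := by
    calc R ^ 4 * c ^ 2 = R ^ 2 * (R * c) ^ 2 := by ring
      _ = R ^ 2 := by rw [hRc]; ring
  have e5 : (∫ z, R ^ 4 * w' (R • z) * (a z ^ 2 + b z ^ 2)) =
      R ^ 4 * ∫ z, w' (R • z) * (a z ^ 2 + b z ^ 2) := by
    rw [← integral_const_mul]
    exact integral_congr_ae (ae_of_all _ fun z => by simp only; ring)
  rw [e5]
  have k6 : R ^ 4 * (∫ z, w' (R • z) * (a z ^ 2 + b z ^ 2)) + (R ^ 4 * c ^ 2) * G *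
      ∫ z, gn W a b z ≤ (R ^ 4 * c ^ 4) * ∫ z, ((QX s₁ W a z + QY s₂ W b z) ^ 2 +
        (PY s₂ W a z - PX s₁ W b z) ^ 2) := by
    linarith
  rw [r4, r2, one_mul] at k6
  exact k6

theorem dx_shift (c : ℝ) (W : VV n → ℝ) (i : Fin n) : HY.dx i (fun z => W z - c) = HY.dx i W := by
  funext z
  unfold HY.dx
  rw [fderiv_sub_const]

theorem dy_shift (c : ℝ) (W : VV n → ℝ) (i : Fin n) : HY.dy i (fun z => W z - c) = HY.dy i W := by
  funext z
  unfold HY.dy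
  rw [fderiv_sub_const]

/-- Constants may be subtracted from the weight. -/
theorem EstG_shift (c : ℝ) {G : ℝ} (h : EstG s₁ s₂ W w G) :
    EstG s₁ s₂ (fun z => W z - c) w G := by
  intro a b ha ca hb cb
  have k := h a b ha ca hb cb
  unfold H269.QX H269.QY H269.PX H269.PY H269.DX H269.DY H269.GX H269.GY S4.H437.gn at *
  simp only [dx_shift, dy_shift]
  exact k

/-- **From rate units to the unit chart**, with a constant subtracted. -/
theorem EstG_unit (hR : 1 ≤ R) (hs₁ : SmM s₁) (hs₂ : SmM s₂) (hW : ContDiff ℝ ∞ W) (c : ℝ) {G : ℝ}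
    (hG : 0 ≤ G) {w' : VV n → ℝ} (cw : Continuous w')
    (h : EstG (fun x => s₁ (R⁻¹ • x)) (fun x => s₂ (R⁻¹ • x)) W w' G) :
    EstG s₁ s₂ (fun z => W (R • z) - c) (fun z => R ^ 4 * w' (R • z)) (R ^ 2 * G) := by
  have hR0 : 0 < R := one_pos.trans_le hR
  refine EstG_shift c ?_
  have hW' : ContDiff ℝ ∞ fun z => W (R • z) := hW.comp (contDiff_const_smul R)
  refine EstG_scale hR hs₁ hs₂ hW' hG cw ?_
  have e : dil R⁻¹ (fun z => W (R • z)) = W := dil_dil (inv_mul_cancel₀ hR0.ne') W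
  rw [e]
  exact h

end Vale.Agent.P088.R2.H551.E
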